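import Vale.Agent.P043T.Reduce

namespace Vale.Agent.Results.P043.TwiceOddPrime

open Vale.Agent.P043T

/-- Every finite tile of the lattice `ℤ^d` whose size is twice an odd prime has a tiling
invariant under a sublattice `N • ℤ^d`, in every dimension `d`. -/
theorem result (d p : ℕ) (hp : p.Prime) (hp2 : p ≠ 2) (F : Finset (Lat d)) (hF : F.card = 2 * p)
    (hA : ∃ A : Set (Lat d), IsTiling A F) : HasPeriodicTiling F := by
  haveI : Fact p.Prime := ⟨hp⟩
  exact periodic_of_tile_general p hp2 F hF hA

end Vale.Agent.Results.P043.TwiceOddPrime
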