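import Vale.Agent.P043T.Main

namespace Vale.Agent.Results.P043.TwiceOddPrimeGen

open Vale.Agent.P043T

/-- A finite tile of the lattice `ℤ^d` whose size is twice an odd prime, with differences
generating the lattice, has a tiling invariant under a sublattice `N • ℤ^d`. -/
theorem result (d p : ℕ) (hp : p.Prime) (hp2 : p ≠ 2) (F : Finset (Lat d)) (hF : F.card = 2 * p)
    (hgen : AddSubgroup.closure {v : Lat d | ∃ f ∈ F, ∃ f' ∈ F, v = f - f'} = ⊤)
    (hA : ∃ A : Set (Lat d), IsTiling A F) : HasPeriodicTiling F := by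
  haveI : Fact p.Prime := ⟨hp⟩
  exact periodic_of_tile p hp2 F hF hgen hA

end Vale.Agent.Results.P043.TwiceOddPrimeGen
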